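import Vale.Agent.P097.H402.Rat.Defs

/-! # P097 / RAT-K23: affine duality of the pencil law at a simple pole

`LawB σ f → LawB (1 / (σ + 2) - 2) (f ∘ affine)`; it maps `σ ∈ (-3/2, -1)` to `(-1, 0)` and
`σ ∈ (-2, -3/2)` to `(0, ∞)`, and fixes `σ = -1`. -/

set_option linter.all false

open Complex Metric Filter Topology Set Polynomial

namespace Vale.Agent.P097.H24

open Vale.Agent.P097.H402.Rat

theorem mul_Ex (z : ℂ) : z * Ex z = Complex.exp z - 1 := by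
  unfold Ex
  split_ifs with h
  · simp [h]
  · field_simp

theorem Ex_neg (z : ℂ) : Ex (-z) = Complex.exp (-z) * Ex z := by
  by_cases h : z = 0
  · simp [h, Ex]
  · have h1 := mul_Ex z
    have h2 := mul_Ex (-z)
    have h3 : Complex.exp (-z) * Complex.exp z = 1 := by rw [← Complex.exp_add]; simp
    apply mul_left_cancel₀ (neg_ne_zero.2 h)
    rw [h2]
    linear_combination (Complex.exp (-z)) * h1 + h3

theorem Ex_ne {z : ℂ} (hz : ‖z‖ < 1) : Ex z ≠ 0 := by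
  intro h
  by_cases h0 : z = 0
  · simp [h0, Ex] at h
  · have h1 := mul_Ex z
    rw [h, mul_zero] at h1
    have h2 := Complex.norm_exp_sub_one_sub_id_le (x := z) hz.le
    rw [← h1, zero_sub, norm_neg] at h2
    have h3 : 0 < ‖z‖ := norm_pos_iff.2 h0
    nlinarith

theorem Ex_zero : Ex 0 = 1 := by simp [Ex]

theorem aB_dual {σ : ℝ} (τ : ℂ) (hb : (σ : ℂ) + 2 ≠ 0) (h1 : Ex ((σ + 1) * τ) ≠ 0) :
    1 + ((σ : ℂ) + 2) * (aB σ τ - 1) = aB (1 / (σ + 2) - 2) ((σ + 2) * τ) := by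
  have e1 : ((((1 / (σ + 2) - 2 : ℝ)) : ℂ) + 2) * ((σ + 2) * τ) = τ := by
    push_cast
    field_simp
    ring
  have e2 : ((((1 / (σ + 2) - 2 : ℝ)) : ℂ) + 1) * ((σ + 2) * τ) = -((σ + 1) * τ) := by
    push_cast
    field_simp
    ring
  have e3 : Ex (-((σ + 1) * τ)) ≠ 0 := by
    rw [Ex_neg]
    exact mul_ne_zero (Complex.exp_ne_zero _) h1
  unfold aB
  rw [e1, e2, eq_div_iff e3, Ex_neg]
  have e4 : Complex.exp (-((σ + 1) * τ)) * Complex.exp ((σ + 1) * τ) = 1 := by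
    rw [← Complex.exp_add]; simp
  -- key identity: (1 - b) Ex ((b-1)τ) + b Ex (bτ) = e^{(b-1)τ} Ex τ
  have key : ((σ : ℂ) + 2) * Ex ((σ + 2) * τ) - (σ + 1) * Ex ((σ + 1) * τ) =
      Complex.exp ((σ + 1) * τ) * Ex τ := by
    by_cases hτ : τ = 0
    · simp [hτ, Ex_zero]
      ring
    · apply mul_left_cancel₀ hτ
      have k1 := mul_Ex (((σ : ℂ) + 2) * τ)
      have k2 := mul_Ex (((σ : ℂ) + 1) * τ)
      have k3 := mul_Ex τ
      have k4 : Complex.exp (((σ : ℂ) + 2) * τ) =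
          Complex.exp ((σ + 1) * τ) * Complex.exp τ := by
        rw [← Complex.exp_add]; congr 1; ring
      linear_combination k1 - k2 - Complex.exp ((σ + 1) * τ) * k3 + k4
  have : (1 + ((σ : ℂ) + 2) * (Ex ((σ + 2) * τ) / Ex ((σ + 1) * τ) - 1)) *
      (Complex.exp (-((σ + 1) * τ)) * Ex ((σ + 1) * τ)) =
      Complex.exp (-((σ + 1) * τ)) * (((σ : ℂ) + 2) * Ex ((σ + 2) * τ) -
        (σ + 1) * Ex ((σ + 1) * τ)) := by
    have q := div_mul_cancel₀ (Ex (((σ : ℂ) + 2) * τ)) h1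
    linear_combination (Complex.exp (-(((σ : ℂ) + 1) * τ)) * ((σ : ℂ) + 2)) * q
  rw [this, key]
  linear_combination (Ex τ) * e4

theorem ev_Ex_ne (k : ℂ) : ∀ᶠ τ in 𝓝 (0 : ℂ), Ex (k * τ) ≠ 0 := by
  have h1 : Tendsto (fun τ : ℂ => k * τ) (𝓝 0) (𝓝 0) := by
    have : Continuous fun τ : ℂ => k * τ := by fun_prop
    simpa using this.tendsto 0
  have h2 : ∀ᶠ z in 𝓝 (0 : ℂ), ‖z‖ < 1 := by
    filter_upwards [Metric.ball_mem_nhds (0 : ℂ) one_pos] with z hz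
    simpa using hz
  filter_upwards [h1.eventually h2] with τ hτ
  exact Ex_ne hτ

/-- affine duality -/
theorem lawB_dual {σ : ℝ} {f : ℂ → ℂ} (hb : σ + 2 ≠ 0) (h : LawB σ f) :
    LawB (1 / (σ + 2) - 2) (fun A => f (1 + (A - 1) / (σ + 2))) := by
  have hb' : (σ : ℂ) + 2 ≠ 0 := by exact_mod_cast hb
  have hcont : Tendsto (fun A : ℂ => 1 + (A - 1) / ((σ : ℂ) + 2)) (𝓝 1) (𝓝 1) := by
    have : Continuous fun A : ℂ => 1 + (A - 1) / ((σ : ℂ) + 2) := by fun_prop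
    simpa using this.tendsto 1
  have hcont2 : Tendsto (fun A : ℂ => 1 + ((σ : ℂ) + 2) * (A - 1)) (𝓝 1) (𝓝 1) := by
    have : Continuous fun A : ℂ => 1 + ((σ : ℂ) + 2) * (A - 1) := by fun_prop
    simpa using this.tendsto 1
  refine ⟨?_, ?_, ?_, ?_⟩
  · have h1 : AnalyticAt ℂ f ((fun A : ℂ => 1 + (A - 1) / ((σ : ℂ) + 2)) 1) := by
      simpa using h.an
    have h2 : AnalyticAt ℂ (fun A : ℂ => 1 + (A - 1) / ((σ : ℂ) + 2)) 1 := by fun_prop
    exact AnalyticAt.comp' (g := f) (f := fun A : ℂ => 1 + (A - 1) / ((σ : ℂ) + 2)) h1 h2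
  · intro hz
    apply h.ne
    filter_upwards [hcont2.eventually hz] with A hA
    have e : 1 + (1 + ((σ : ℂ) + 2) * (A - 1) - 1) / ((σ : ℂ) + 2) = A := by
      field_simp
      ring
    have hA' : f (1 + (1 + ((σ : ℂ) + 2) * (A - 1) - 1) / ((σ : ℂ) + 2)) = 0 := hA
    rwa [e] at hA'
  · filter_upwards [hcont.eventually h.refl] with A hA
    rw [← hA]
    congr 1
    field_simp
    ring
  · have ht : Tendsto (fun τ : ℂ => τ / ((σ : ℂ) + 2)) (𝓝 0) (𝓝 0) := by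
      have : Continuous fun τ : ℂ => τ / ((σ : ℂ) + 2) := by fun_prop
      simpa using this.tendsto 0
    have ht' : Tendsto (fun τ : ℂ => -(τ / ((σ : ℂ) + 2))) (𝓝 0) (𝓝 0) := by
      have : Continuous fun τ : ℂ => -(τ / ((σ : ℂ) + 2)) := by fun_prop
      simpa using this.tendsto 0
    filter_upwards [ht.eventually h.chord, ht.eventually (ev_Ex_ne ((σ : ℂ) + 1)),
      ht'.eventually (ev_Ex_ne ((σ : ℂ) + 1))] with τ h1 h2 h3
    have d1 := aB_dual (σ := σ) (τ / ((σ : ℂ) + 2)) hb' h2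
    have d2 := aB_dual (σ := σ) (-(τ / ((σ : ℂ) + 2))) hb' h3
    rw [show ((σ : ℂ) + 2) * (τ / ((σ : ℂ) + 2)) = τ by field_simp] at d1
    rw [show ((σ : ℂ) + 2) * (-(τ / ((σ : ℂ) + 2))) = -τ by field_simp] at d2
    rw [← d1, ← d2]
    have s1 : ∀ a : ℂ, 1 + (1 + ((σ : ℂ) + 2) * (a - 1) - 1) / ((σ : ℂ) + 2) = a := by
      intro a
      field_simp
      ring
    simp only [s1]
    rw [h1]
    congr 3
    push_cast
    field_simp
    ring

/-- RAT-K2 from the kill of `LawB σ`, `σ ≥ -1`, `σ ≠ 0` -/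
theorem pk2_of (hk : ∀ (σ : ℝ) (f : ℂ → ℂ), -1 ≤ σ → σ ≠ 0 → ¬ LawB σ f) : PK2 := by
  intro σ f h1 h2 h
  rcases h2.lt_or_eq with h2 | h2
  · have hb : 0 < σ + 2 := by linarith
    refine hk _ _ ?_ ?_ (lawB_dual hb.ne' h)
    · have : 1 < 1 / (σ + 2) := by rw [lt_div_iff₀ hb]; linarith
      linarith
    · have : 1 / (σ + 2) < 2 := by rw [div_lt_iff₀ hb]; linarith
      intro h3
      linarith
  · subst h2
    exact hk (-1) f le_rfl (by norm_num) h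

/-- RAT-K3 from RAT-K1 -/
theorem pk3_of (hk : PK1) : PK3 := by
  intro σ f h1 h2 h
  have hb : 0 < σ + 2 := by linarith
  have : 2 < 1 / (σ + 2) := by rw [lt_div_iff₀ hb]; linarith
  exact hk _ _ (by linarith) (by intro h3; linarith) (lawB_dual hb.ne' h)

end Vale.Agent.P097.H24
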