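import Vale.Agent.P097.H24.K23
import Vale.Agent.P097.H990.K1

/-! # P097 / RAT-K23: the kills of `LawB σ` for `-2 < σ ≤ -1`, `σ ≠ -3/2` -/

namespace Vale.Agent.P097.H24

open Vale.Agent.P097.H402.Rat

/-- RAT-K2 -/
theorem pk2 : PK2 := pk2_of fun σ f h1 h2 => Vale.Agent.P097.H990.k1 σ h1 h2 f

/-- RAT-K3 -/
theorem pk3 : PK3 := pk3_of Vale.Agent.P097.H990.pk1

end Vale.Agent.P097.H24
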